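import Mathlib

/-!
# P134: the mixed second difference identity for the Allen-Cahn equation

If `u` is an entire `C^2` solution of `Δ u = u^3 - u` and two translations `a`, `b`
act on `u` additively and independently (`u (y + a) = u y + A y`, `u (y + b) = u y + B y`,
`u (y + a + b) = u y + A y + B y`), then `A x * B x * (2 * u x + A x + B x) = 0`.
The proof only uses that the Laplacian is linear and commutes with translations.
-/

open InnerProductSpace Laplacian

namespace Vale.Agent.Lib.P134.helper20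

variable {E : Type*} [NormedAddCommGroup E] [InnerProductSpace ℝ E] [FiniteDimensional ℝ E]

/-- translation invariance of the Laplacian -/
lemma laplacian_comp_add_right' (u : E → ℝ) (v x : E) :
    Δ (fun y => u (y + v)) x = Δ u (x + v) := by
  rw [laplacian_eq_iteratedFDeriv_stdOrthonormalBasis,
    laplacian_eq_iteratedFDeriv_stdOrthonormalBasis]
  simp only [iteratedFDeriv_comp_add_right]

/-- the mixed second difference of the cubic nonlinearity vanishes -/
lemma key (u : E → ℝ) (hu : ContDiff ℝ 2 u) (heq : ∀ x, Δ u x = u x ^ 3 - u x)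
    (a b : E) (A B : E → ℝ)
    (h1 : ∀ y, u (y + a) = u y + A y) (h2 : ∀ y, u (y + b) = u y + B y)
    (h3 : ∀ y, u (y + a + b) = u y + A y + B y) (x : E) :
    A x * B x * (2 * u x + A x + B x) = 0 := by
  have hw : (fun y => u (y + (a + b)) - u (y + a) - u (y + b) + u y)
      = fun _ => (0 : ℝ) := by
    funext y
    rw [← add_assoc, h3, h1, h2]; ring
  have hc : ∀ v : E, ContDiff ℝ 2 (fun y => u (y + v)) := fun v =>
    hu.comp (contDiff_id.add contDiff_const)
  have hL : Δ (fun y => u (y + (a + b)) - u (y + a) - u (y + b) + u y) x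
      = Δ u (x + (a + b)) - Δ u (x + a) - Δ u (x + b) + Δ u x := by
    have e1 : (fun y => u (y + (a + b)) - u (y + a) - u (y + b) + u y)
        = ((fun y => u (y + (a + b))) - (fun y => u (y + a))
            - (fun y => u (y + b))) + u := by
      funext y; simp
    rw [e1]
    rw [ContDiffAt.laplacian_add, ContDiffAt.laplacian_sub, ContDiffAt.laplacian_sub,
      laplacian_comp_add_right', laplacian_comp_add_right', laplacian_comp_add_right']
    · exact (hc _).contDiffAt
    · exact (hc _).contDiffAt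
    · exact ((hc _).sub (hc _)).contDiffAt
    · exact (hc _).contDiffAt
    · exact (((hc _).sub (hc _)).sub (hc _)).contDiffAt
    · exact hu.contDiffAt
  rw [hw] at hL
  have h0 : Δ (fun _ : E => (0 : ℝ)) x = 0 := by
    rw [laplacian_const]; rfl
  rw [h0, heq, heq, heq, heq, ← add_assoc, h3, h1, h2] at hL
  nlinarith [hL]

/-- Splitting theorem: if `u = φ + ψ` where `φ` is invariant under translations by `K₁`,
`ψ` is invariant under translations by `K₂` and `K₁ + K₂` is everything, then `φ` or `ψ`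
is constant. -/
theorem split_const (u : E → ℝ) (hu : ContDiff ℝ 2 u) (heq : ∀ x, Δ u x = u x ^ 3 - u x)
    (K₁ K₂ : Submodule ℝ E) (hK : K₁ ⊔ K₂ = ⊤) (φ ψ : E → ℝ)
    (hφ : ∀ x, ∀ k ∈ K₁, φ (x + k) = φ x) (hψ : ∀ x, ∀ k ∈ K₂, ψ (x + k) = ψ x)
    (hsep : ∀ x, u x = φ x + ψ x) :
    (∀ x y, φ x = φ y) ∨ (∀ x y, ψ x = ψ y) := by
  by_contra hcon
  push Not at hcon
  obtain ⟨⟨x1, x2, hx⟩, ⟨y1, y2, hy⟩⟩ := hcon
  have hdec : ∀ w : E, ∃ c₁ ∈ K₁, ∃ c₂ ∈ K₂, c₁ + c₂ = w := by
    intro w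
    have : w ∈ K₁ ⊔ K₂ := by rw [hK]; trivial
    exact Submodule.mem_sup.mp this
  obtain ⟨c₁, hc₁, c₂, hc₂, hc⟩ := hdec (x2 - x1)
  obtain ⟨d₁, hd₁, d₂, hd₂, hd⟩ := hdec (y2 - y1)
  obtain ⟨e₁, he₁, e₂, he₂, he⟩ := hdec (y1 - x1)
  -- a base point
  set z : E := x1 + e₁ with hz
  have hz2 : z = y1 + (-e₂) := by
    rw [hz]
    have : y1 = x1 + (e₁ + e₂) := by rw [he]; abel
    rw [this]; abel
  have hφz : φ z = φ x1 := hφ x1 e₁ he₁
  have hφzc : φ (z + c₂) = φ x2 := by
    have e : z + c₂ = x2 + (e₁ + (-c₁)) := by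
      have : x2 = x1 + (c₁ + c₂) := by rw [hc]; abel
      rw [hz, this]; abel
    rw [e]
    exact hφ x2 _ (K₁.add_mem he₁ (K₁.neg_mem hc₁))
  have hψz : ψ z = ψ y1 := by rw [hz2]; exact hψ y1 _ (K₂.neg_mem he₂)
  have hψzd : ψ (z + d₁) = ψ y2 := by
    have e : z + d₁ = y2 + (-e₂ + (-d₂)) := by
      have : y2 = y1 + (d₁ + d₂) := by rw [hd]; abel
      rw [hz2, this]; abel
    rw [e]
    exact hψ y2 _ (K₂.add_mem (K₂.neg_mem he₂) (K₂.neg_mem hd₂))
  -- the identity for shifts in K₂ and K₁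
  have hid : ∀ a ∈ K₂, ∀ b ∈ K₁,
      (φ (z + a) - φ z) * (ψ (z + b) - ψ z)
        * (2 * u z + (φ (z + a) - φ z) + (ψ (z + b) - ψ z)) = 0 := by
    intro a ha b hb
    refine key u hu heq a b (fun y => φ (y + a) - φ y) (fun y => ψ (y + b) - ψ y)
      ?_ ?_ ?_ z
    · intro y; rw [hsep, hsep, hψ y a ha]; ring
    · intro y; rw [hsep, hsep, hφ y b hb]; ring
    · intro y
      rw [hsep, hsep, hφ (y + a) b hb]
      have : y + a + b = y + b + a := by abel
      rw [this, hψ (y + b) a ha]; ring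
  -- continuity of ψ along the line z + t d₁
  have hline : ∀ t : ℝ, ψ (z + t • d₁) = u (z + t • d₁) - φ z := by
    intro t
    rw [hsep, hφ z _ (K₁.smul_mem t hd₁)]; ring
  have hcont : Continuous (fun t : ℝ => ψ (z + t • d₁)) := by
    have : (fun t : ℝ => ψ (z + t • d₁)) = fun t : ℝ => u (z + t • d₁) - φ z := funext hline
    rw [this]
    exact (hu.continuous.comp (continuous_const.add
      (continuous_id.smul continuous_const))).sub continuous_const
  have h0 : ψ (z + (0 : ℝ) • d₁) = ψ z := by simp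
  have h1 : ψ (z + (1 : ℝ) • d₁) = ψ (z + d₁) := by simp
  obtain ⟨t, ht⟩ : (ψ z + ψ (z + d₁)) / 2 ∈ Set.range (fun t : ℝ => ψ (z + t • d₁)) := by
    rcases le_total (ψ z) (ψ (z + d₁)) with hle | hle
    · exact mem_range_of_exists_le_of_exists_ge hcont
        ⟨0, by rw [h0]; linarith⟩ ⟨1, by rw [h1]; linarith⟩
    · exact mem_range_of_exists_le_of_exists_ge hcont
        ⟨1, by rw [h1]; linarith⟩ ⟨0, by rw [h0]; linarith⟩
  simp only at ht
  have k1 := hid c₂ hc₂ d₁ hd₁
  have k2 := hid c₂ hc₂ (t • d₁) (K₁.smul_mem t hd₁)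
  rw [ht] at k2
  have hA : φ (z + c₂) - φ z ≠ 0 := by
    rw [hφzc, hφz]; exact fun h => hx (by linarith)
  have hB : ψ (z + d₁) - ψ z ≠ 0 := by
    rw [hψzd, hψz]; exact fun h => hy (by linarith)
  have hB2 : (ψ z + ψ (z + d₁)) / 2 - ψ z ≠ 0 := fun h => hB (by linarith)
  have r1 := (mul_eq_zero.mp k1).resolve_left (mul_ne_zero hA hB)
  have r2 := (mul_eq_zero.mp k2).resolve_left (mul_ne_zero hA hB2)
  exact hB (by linarith)

end Vale.Agent.Lib.P134.helper20
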